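import Vale.Agent.Lib.P245.Basic
import Vale.Agent.Lib.P245.Herbst

open MeasureTheory

namespace Vale.Agent.Results.P245.Equivalence

/-- Euclidean `n`-space. -/
abbrev E (n : ℕ) : Type := EuclideanSpace ℝ (Fin n)

/-- The entropy `∫ g log g dμ - (∫ g dμ) log (∫ g dμ)` (with `0 log 0 = 0`). -/
noncomputable def Ent {n : ℕ} (μ : Measure (E n)) (g : E n → ℝ) : ℝ :=
  ∫ x, g x * Real.log (g x) ∂μ - (∫ x, g x ∂μ) * Real.log (∫ x, g x ∂μ)

/-- The log-Sobolev inequality with constant `C` for the single test function `f`. -/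
def LSIat {n : ℕ} (μ : Measure (E n)) (C : ℝ) (f : E n → ℝ) : Prop :=
  Ent μ (fun x => f x ^ 2) ≤ C * ∫ x, ‖gradient f x‖ ^ 2 ∂μ

/-- The log-Sobolev inequality with constant `C` for all smooth compactly supported functions. -/
def LSI {n : ℕ} (μ : Measure (E n)) (C : ℝ) : Prop :=
  ∀ f : E n → ℝ, ContDiff ℝ ((⊤ : ℕ∞) : WithTop ℕ∞) f → HasCompactSupport f → LSIat μ C f

/-- The log-Sobolev inequality with constant `C` for the log-linear functions
`x ↦ exp (⟨x, lam⟩ / 2)`, whose squares are required to be integrable. -/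
def LogLinLSI {n : ℕ} (μ : Measure (E n)) (C : ℝ) : Prop :=
  ∀ lam : E n, Integrable (fun x => Real.exp (inner ℝ x lam / 2) ^ 2) μ ∧
    LSIat μ C (fun x => Real.exp (inner ℝ x lam / 2))

/-- All linear functionals have mean zero. -/
def Centered {n : ℕ} (μ : Measure (E n)) : Prop :=
  ∀ θ : E n, ∫ x, inner ℝ x θ ∂μ = 0

/-- Linear `a`-subgaussianity. -/
def LinSubgaussian {n : ℕ} (μ : Measure (E n)) (a : ℝ) : Prop :=
  ∀ θ : E n, ‖θ‖ = 1 → Integrable (fun x => Real.exp ((inner ℝ x θ) ^ 2 / a ^ 2)) μ ∧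
    ∫ x, Real.exp ((inner ℝ x θ) ^ 2 / a ^ 2) ∂μ ≤ 2

/-- `μ` has a log-concave Lebesgue density. -/
def LogConcave {n : ℕ} (μ : Measure (E n)) : Prop :=
  ∃ ρ : E n → ℝ, Measurable ρ ∧ (∀ x, 0 ≤ ρ x) ∧ Convex ℝ {x | 0 < ρ x} ∧
    ConcaveOn ℝ {x | 0 < ρ x} (fun x => Real.log (ρ x)) ∧
    μ = volume.withDensity (fun x => ENNReal.ofReal (ρ x))

theorem sq_exp_half (y : ℝ) : Real.exp (y / 2) ^ 2 = Real.exp y := by
  rw [← Real.exp_nat_mul]
  apply congrArg
  push_cast
  ring

theorem forward {n : ℕ} (μ : Measure (E n)) [IsProbabilityMeasure μ] (hcent : Centered μ)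
    (a : ℝ) (ha : 0 < a) (h : LinSubgaussian μ a) : LogLinLSI μ (16 * a ^ 2) := by
  intro lam
  obtain ⟨h1, _, _, h4⟩ := Lib.P245.logLinear_main n μ a ha hcent h lam
  exact ⟨h1, h4⟩

theorem backward {n : ℕ} (μ : Measure (E n)) [IsProbabilityMeasure μ] (hcent : Centered μ)
    (c : ℝ) (hc : 0 < c) (h : LogLinLSI μ c) : LinSubgaussian μ (Real.sqrt (4 * c / 3)) := by
  intro θ hθ
  have hZ : Measurable (fun x : E n => inner ℝ x θ) :=
    (continuous_id.inner continuous_const).measurable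
  have hrel : ∀ (s : ℝ) (x : E n), inner ℝ x (s • θ) = s * inner ℝ x θ := by
    intro s x
    rw [inner_smul_right]
  have hint : ∀ s : ℝ, Integrable (fun x : E n => Real.exp (s * inner ℝ x θ)) μ := by
    intro s
    have := (h (s • θ)).1
    simp only [sq_exp_half, hrel] at this
    exact this
  have hLS : ∀ s : ℝ, ∫ x, Real.exp (s * inner ℝ x θ) * (s * inner ℝ x θ) ∂μ
      - (∫ x, Real.exp (s * inner ℝ x θ) ∂μ) * Real.log (∫ x, Real.exp (s * inner ℝ x θ) ∂μ)
      ≤ c / 4 * s ^ 2 * ∫ x, Real.exp (s * inner ℝ x θ) ∂μ := by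
    intro s
    have h2 := (h (s • θ)).2
    unfold LSIat Ent at h2
    have e3 : (fun x : E n => ‖gradient (fun y : E n =>
        Real.exp (inner ℝ y (s • θ) / 2)) x‖ ^ 2)
        = fun x => (s ^ 2 / 4) * Real.exp (s * inner ℝ x θ) := by
      funext x
      rw [Lib.P245.grad_formula, norm_smul, mul_pow, Real.norm_eq_abs, sq_abs, div_pow,
        sq_exp_half, hrel, norm_smul, hθ, mul_one, Real.norm_eq_abs, sq_abs]
      ring
    rw [e3, integral_const_mul] at h2
    simp only [sq_exp_half, hrel, Real.log_exp] at h2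
    refine h2.trans (le_of_eq ?_)
    ring
  have hm := Lib.P245.herbst hint (hcent θ) hLS
  obtain ⟨i1, i2⟩ := Lib.P245.psi2_of_mgf hZ (by positivity : 0 < c / 4) hint hm
  have hsq : Real.sqrt (4 * c / 3) ^ 2 = 4 * c / 3 := Real.sq_sqrt (by positivity)
  have e : (fun x : E n => Real.exp ((inner ℝ x θ) ^ 2 / Real.sqrt (4 * c / 3) ^ 2))
      = fun x => Real.exp (3 / (16 * (c / 4)) * (inner ℝ x θ) ^ 2) := by
    funext x
    apply congrArg
    rw [hsq]
    field_simp
    ring
  rw [e]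
  exact ⟨i1, i2⟩

/-- (1) linear `a`-subgaussianity gives the log-Sobolev inequality with constant `16 a ^ 2` on
log-linear functions; (2) conversely the log-Sobolev inequality with constant `c` on log-linear
functions gives linear `sqrt (4 c / 3)`-subgaussianity; (3) hence the conjecture is equivalent to
the statement that, for centered log-concave probability measures, a log-Sobolev inequality on
log-linear functions implies one for all smooth compactly supported functions, with the constant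
multiplied by an absolute factor. -/
theorem result :
    (∀ (n : ℕ) (μ : Measure (E n)), IsProbabilityMeasure μ → Centered μ →
      ∀ a : ℝ, 0 < a → LinSubgaussian μ a → LogLinLSI μ (16 * a ^ 2)) ∧
    (∀ (n : ℕ) (μ : Measure (E n)), IsProbabilityMeasure μ → Centered μ →
      ∀ c : ℝ, 0 < c → LogLinLSI μ c → LinSubgaussian μ (Real.sqrt (4 * c / 3))) ∧
    ((∃ C : ℝ, ∀ (n : ℕ) (μ : Measure (E n)), IsProbabilityMeasure μ → LogConcave μ →
        Centered μ → ∀ a : ℝ, 0 < a → LinSubgaussian μ a → LSI μ (C * a ^ 2)) ↔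
      (∃ C' : ℝ, ∀ (n : ℕ) (μ : Measure (E n)), IsProbabilityMeasure μ → LogConcave μ →
        Centered μ → ∀ c : ℝ, 0 < c → LogLinLSI μ c → LSI μ (C' * c))) := by
  refine ⟨fun n μ hμ hc a ha h => forward μ hc a ha h,
    fun n μ hμ hc c hc0 h => backward μ hc c hc0 h, ?_, ?_⟩
  · rintro ⟨C, hC⟩
    refine ⟨C * (4 / 3), fun n μ hμ hlc hcent c hc h => ?_⟩
    have h1 := backward μ hcent c hc h
    have h2 := hC n μ hμ hlc hcent _ (Real.sqrt_pos.2 (by positivity)) h1
    have hsq : Real.sqrt (4 * c / 3) ^ 2 = 4 * c / 3 := Real.sq_sqrt (by positivity)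
    rw [hsq] at h2
    have e : C * (4 / 3) * c = C * (4 * c / 3) := by ring
    rw [e]
    exact h2
  · rintro ⟨C', hC'⟩
    refine ⟨C' * 16, fun n μ hμ hlc hcent a ha h => ?_⟩
    have h1 := forward μ hcent a ha h
    have h2 := hC' n μ hμ hlc hcent _ (by positivity) h1
    have e : C' * 16 * a ^ 2 = C' * (16 * a ^ 2) := by ring
    rw [e]
    exact h2

end Vale.Agent.Results.P245.Equivalence
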